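import Vale.Agent.Lib.P184.Geo.Mid

/-!
# Module G5: the CN inequality implies condition (B1) of strong bolicity

FROZEN STATEMENT `b1_of_cn`.  Route.  Fix `o z p q : X`, `a = dist o z`, `choose mid hmid using hCN`.
`P p 0 = p`, `P p (k+1) = mid o (P p k)`.
(1) `dist o (P p k) = dist o p / 2 ^ k` (`IsMid.dist_left`).
(2) `dist (P p k) (P q k) ≤ dist p q / 2 ^ k` (`IsMid.contract` with `IsMid.symm`: `mid o p` is a
    midpoint of `p, o`, `mid o q` a midpoint of `o, q`).
(3) `E p k = dist z (P p k) - dist o (P p k)`.  `|E p k| ≤ a`.  `E p k ≤ E p (k+1)` (triangle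
    inequality and `IsMid.dist_right`).
(4) with `t = dist o (P p k)`: `t * (E p (k+1) - E p k) ≤ a ^ 2`.  Proof: CN at `z`:
    `dist z (P p (k+1)) ^ 2 ≤ (a ^ 2 + dist z (P p k) ^ 2) / 2 - t ^ 2 / 4`; write
    `dist z (P p k) = t + E`, `dist z (P p (k+1)) = t / 2 + E'`; expand:
    `t * (E' - E) ≤ a ^ 2 / 2 + E ^ 2 / 2 - E' ^ 2 ≤ a ^ 2`.
(5) hence, if `0 < dist o p`: `E p K - E p 0 ≤ a ^ 2 * 2 ^ K / dist o p` (sum of a geometric series).
(6) `E q 0 ≤ E q K ≤ E p K + 2 * dist (P p K) (P q K) ≤ E p 0 + a ^ 2 * 2 ^ K / dist o p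
      + 2 * dist p q / 2 ^ K`.
(7) `b1_of_cn`: `x₁ = z`, `x₂ = o`, `y₁ = p`, `y₂ = q`; the claim is `E q 0 - E p 0 ≤ η`.  WLOG `0 ≤ r`
    (otherwise the hypothesis `dist x₁ x₂ ≤ r` is absurd).  Choose `K` with `2 * r / 2 ^ K ≤ η / 2`,
    then `R = r + 1 + 2 * r ^ 2 * 2 ^ K / η`, so that `dist o p ≥ R - r`.
-/

namespace Vale.Agent.Lib.P184.Geo

namespace Bolic

variable {X : Type*} [PseudoMetricSpace X]

/-- iterated midpoints towards `o` -/
def P (mid : X → X → X) (o p : X) : ℕ → X
  | 0 => p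
  | k + 1 => mid o (P mid o p k)

variable {mid : X → X → X} (hmid : ∀ x y, IsMid (mid x y) x y)

include hmid

theorem dist_o_succ (o p : X) (k : ℕ) :
    dist o (P mid o p (k + 1)) = dist o (P mid o p k) / 2 :=
  (hmid o (P mid o p k)).dist_left

theorem dist_o_P (o p : X) (k : ℕ) : dist o (P mid o p k) = dist o p / 2 ^ k := by
  induction k with
  | zero => simp [P]
  | succ k ih =>
    rw [dist_o_succ hmid, ih, pow_succ]
    field_simp

theorem dist_P_P (o p q : X) (k : ℕ) :
    dist (P mid o p k) (P mid o q k) ≤ dist p q / 2 ^ k := by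
  induction k with
  | zero => simp [P]
  | succ k ih =>
    have h1 : dist (P mid o p (k + 1)) (P mid o q (k + 1))
        ≤ dist (P mid o p k) (P mid o q k) / 2 :=
      IsMid.contract (hmid o (P mid o p k)).symm (hmid o (P mid o q k))
    have h2 : dist p q / 2 ^ (k + 1) = dist p q / 2 ^ k / 2 := by
      rw [pow_succ]; field_simp
    rw [h2]
    linarith

/-- the Busemann-type defect -/
def E (mid : X → X → X) (o z p : X) (k : ℕ) : ℝ :=
  dist z (P mid o p k) - dist o (P mid o p k)

omit hmid in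
theorem abs_E_le (o z p : X) (k : ℕ) : |E mid o z p k| ≤ dist o z := by
  unfold E
  rw [abs_le]
  constructor
  · have := dist_triangle o z (P mid o p k)
    linarith
  · have := dist_triangle z o (P mid o p k)
    have h2 := dist_comm z o
    linarith

theorem E_mono_succ (o z p : X) (k : ℕ) : E mid o z p k ≤ E mid o z p (k + 1) := by
  unfold E
  have h1 := dist_o_succ hmid o p k
  have h2 : dist (P mid o p k) (P mid o p (k + 1)) = dist o (P mid o p k) / 2 :=
    (hmid o (P mid o p k)).dist_right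
  have h3 := dist_triangle z (P mid o p (k + 1)) (P mid o p k)
  have h4 := dist_comm (P mid o p (k + 1)) (P mid o p k)
  linarith

theorem E_mono (o z p : X) (k : ℕ) : E mid o z p 0 ≤ E mid o z p k := by
  induction k with
  | zero => exact le_refl _
  | succ k ih => exact ih.trans (E_mono_succ hmid o z p k)

theorem step (o z p : X) (k : ℕ) :
    dist o (P mid o p k) * (E mid o z p (k + 1) - E mid o z p k) ≤ dist o z ^ 2 := by
  have hcn := hmid o (P mid o p k) z
  have h1 := dist_o_succ hmid o p k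
  have hE := abs_E_le (mid := mid) o z p k
  have hE2 : E mid o z p k ^ 2 ≤ dist o z ^ 2 := by
    have := sq_le_sq' (neg_le_of_abs_le hE) (le_of_abs_le hE)
    exact this
  have hd : dist z (P mid o p k) = dist o (P mid o p k) + E mid o z p k := by
    unfold E; ring
  have hd' : dist z (P mid o p (k + 1)) = dist o (P mid o p k) / 2 + E mid o z p (k + 1) := by
    unfold E; rw [h1]; ring
  have hcn' : dist z (P mid o p (k + 1)) ^ 2
      ≤ (dist z o ^ 2 + dist z (P mid o p k) ^ 2) / 2 - dist o (P mid o p k) ^ 2 / 4 := hcn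
  rw [hd, hd', dist_comm z o] at hcn'
  nlinarith [sq_nonneg (E mid o z p (k + 1))]

theorem sum_step (o z p : X) (K : ℕ) :
    dist o p * (E mid o z p K - E mid o z p 0) ≤ dist o z ^ 2 * (2 ^ K - 1) := by
  induction K with
  | zero => simp
  | succ K ih =>
    have h := step hmid o z p K
    rw [dist_o_P hmid] at h
    have h2 : dist o p * (E mid o z p (K + 1) - E mid o z p K) ≤ dist o z ^ 2 * 2 ^ K := by
      have hpos : (0 : ℝ) < 2 ^ K := by positivity
      have : dist o p / 2 ^ K * (E mid o z p (K + 1) - E mid o z p K) * 2 ^ K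
          ≤ dist o z ^ 2 * 2 ^ K := mul_le_mul_of_nonneg_right h hpos.le
      have e : dist o p / 2 ^ K * (E mid o z p (K + 1) - E mid o z p K) * 2 ^ K
          = dist o p * (E mid o z p (K + 1) - E mid o z p K) := by
        field_simp
      linarith
    have e2 : (2 : ℝ) ^ (K + 1) = 2 * 2 ^ K := by rw [pow_succ]; ring
    rw [e2]
    nlinarith

omit hmid in
theorem E_compare (o z p q : X) (K : ℕ) :
    E mid o z q K ≤ E mid o z p K + 2 * dist (P mid o p K) (P mid o q K) := by
  unfold E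
  have h1 := dist_triangle z (P mid o p K) (P mid o q K)
  have h2 := dist_triangle o (P mid o q K) (P mid o p K)
  have h3 := dist_comm (P mid o q K) (P mid o p K)
  linarith

theorem main (o z p q : X) (K : ℕ) (hD : 0 < dist o p) :
    E mid o z q 0 ≤ E mid o z p 0 + dist o z ^ 2 * 2 ^ K / dist o p + 2 * (dist p q / 2 ^ K) := by
  have h1 := E_mono hmid o z q K
  have h2 := E_compare (mid := mid) o z p q K
  have h3 := dist_P_P hmid o p q K
  have h4 := sum_step hmid o z p K
  have h5 : E mid o z p K - E mid o z p 0 ≤ dist o z ^ 2 * 2 ^ K / dist o p := by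
    rw [le_div_iff₀ hD]
    have : dist o z ^ 2 * (2 ^ K - 1) ≤ dist o z ^ 2 * 2 ^ K := by
      have := sq_nonneg (dist o z)
      nlinarith
    linarith
  linarith

end Bolic

open Bolic in
theorem b1_of_cn {X : Type*} [PseudoMetricSpace X] (hCN : CN X) : B1 X := by
  choose mid hmid using hCN
  intro r η hη
  by_cases hr : r < 0
  · refine ⟨0, fun x₁ x₂ y₁ y₂ h1 _ _ => ?_⟩
    have := dist_nonneg (x := x₁) (y := x₂)
    linarith
  push Not at hr
  obtain ⟨K, hK⟩ := pow_unbounded_of_one_lt (4 * r / η) (one_lt_two : (1 : ℝ) < 2)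
  have hKpos : (0 : ℝ) < 2 ^ K := by positivity
  refine ⟨r + 1 + 2 * r ^ 2 * 2 ^ K / η, fun z o p q h1 h2 h3 => ?_⟩
  have hzo : dist o z ≤ r := by rw [dist_comm]; exact h1
  have hD : 1 + 2 * r ^ 2 * 2 ^ K / η ≤ dist o p := by
    have := dist_triangle z o p
    linarith
  have hpos : 0 < dist o p := by
    have : 0 ≤ 2 * r ^ 2 * 2 ^ K / η := by positivity
    linarith
  have hmain := main hmid o z p q K hpos
  have hA : dist o z ^ 2 * 2 ^ K / dist o p ≤ η / 2 := by
    rw [div_le_iff₀ hpos]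
    have h5 : dist o z ^ 2 ≤ r ^ 2 := by
      have := dist_nonneg (x := o) (y := z)
      nlinarith
    have h6 : η / 2 * (1 + 2 * r ^ 2 * 2 ^ K / η) ≤ η / 2 * dist o p :=
      mul_le_mul_of_nonneg_left hD (by positivity)
    have h7 : η / 2 * (1 + 2 * r ^ 2 * 2 ^ K / η) = η / 2 + r ^ 2 * 2 ^ K := by
      field_simp
    have h8 : dist o z ^ 2 * 2 ^ K ≤ r ^ 2 * 2 ^ K := mul_le_mul_of_nonneg_right h5 hKpos.le
    linarith
  have hB : 2 * (dist p q / 2 ^ K) ≤ η / 2 := by
    have h5 : dist p q / 2 ^ K ≤ r / 2 ^ K := div_le_div_of_nonneg_right h2 hKpos.le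
    have h6 : r / 2 ^ K ≤ η / 4 := by
      rw [div_le_iff₀ hKpos]
      rw [div_lt_iff₀ hη] at hK
      linarith
    linarith
  unfold E at hmain
  simp only [P] at hmain
  linarith

end Vale.Agent.Lib.P184.Geo
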