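import Vale.Agent.Lib.P184.Geo.Mid

/-!
# Module G3: the Bruhat-Tits fixed point theorem for an element of finite order

FROZEN STATEMENT `exists_fixed_of_finOrder`.  Route: fix `o`, `N = orderOf g > 0`,
`r y = ∑ j ∈ Finset.range N, dist y (g ^ j • o) ^ 2` (the sum of squares is more convenient than the
maximum).  `r` is continuous and `r y ≥ dist y o ^ 2`, so it attains its minimum on `X` (minimise on
the compact ball `Metric.closedBall o (Real.sqrt (r o) + 1)`).  `r (g • y) = r y` (reindex the sum
with `g ^ N = 1`).  If `y, y'` are two minimisers and `m` a midpoint, summing the CN inequality gives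
`r m ≤ (r y + r y') / 2 - N * dist y y' ^ 2 / 4`, hence `dist y y' = 0`.  So `g • q = q` for the
minimiser `q`.
-/

namespace Vale.Agent.Lib.P184.Geo

theorem exists_fixed_of_finOrder {G X : Type*} [Group G] [MetricSpace X] [ProperSpace X]
    [Nonempty X] [MulAction G X] (hiso : ∀ (g : G) (x y : X), dist (g • x) (g • y) = dist x y)
    (hCN : CN X) (g : G) (hg : IsOfFinOrder g) : ∃ q : X, g • q = q := by
  obtain ⟨o⟩ := ‹Nonempty X›
  set N := orderOf g with hN
  have hNpos : 0 < N := hg.orderOf_pos
  set r : X → ℝ := fun y => ∑ j ∈ Finset.range N, dist y (g ^ j • o) ^ 2 with hr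
  have hrcont : Continuous r := by
    apply continuous_finsetSum
    intro j _
    exact (continuous_id.dist continuous_const).pow 2
  have hrge : ∀ y, dist y o ^ 2 ≤ r y := by
    intro y
    have h0 : (0 : ℕ) ∈ Finset.range N := Finset.mem_range.2 hNpos
    have := Finset.single_le_sum (f := fun j => dist y (g ^ j • o) ^ 2)
      (fun j _ => by positivity) h0
    simpa using this
  -- invariance
  have hrinv : ∀ y, r (g • y) = r y := by
    intro y
    have e1 : ∀ j, dist (g • y) (g ^ (j + 1) • o) = dist y (g ^ j • o) := by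
      intro j
      rw [pow_succ', mul_smul, hiso]
    have e2 : r y = ∑ j ∈ Finset.range N, dist (g • y) (g ^ (j + 1) • o) ^ 2 := by
      simp only [hr, e1]
    rw [e2]
    have e3 := Finset.sum_range_succ' (fun j => dist (g • y) (g ^ j • o) ^ 2) N
    have e4 := Finset.sum_range_succ (fun j => dist (g • y) (g ^ j • o) ^ 2) N
    have e5 : g ^ N = 1 := pow_orderOf_eq_one g
    simp only [e5, pow_zero] at e3 e4
    simp only [hr]
    linarith
  -- minimiser
  have hcomp : IsCompact (Metric.closedBall o (Real.sqrt (r o) + 1)) := isCompact_closedBall _ _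
  have hne : (Metric.closedBall o (Real.sqrt (r o) + 1)).Nonempty :=
    ⟨o, Metric.mem_closedBall_self (by positivity)⟩
  obtain ⟨q, hq, hqmin⟩ := hcomp.exists_isMinOn hne hrcont.continuousOn
  have hmin : ∀ y, r q ≤ r y := by
    intro y
    by_cases hy : y ∈ Metric.closedBall o (Real.sqrt (r o) + 1)
    · exact hqmin hy
    · rw [Metric.mem_closedBall, not_le] at hy
      have h1 : r q ≤ r o := hqmin (Metric.mem_closedBall_self (by positivity))
      have h2 : 0 ≤ r o := le_trans (by positivity) (hrge o)
      have h3 : r o ≤ dist y o ^ 2 := by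
        have h4 : Real.sqrt (r o) ^ 2 = r o := Real.sq_sqrt h2
        have h5 : 0 ≤ Real.sqrt (r o) := Real.sqrt_nonneg _
        nlinarith
      exact h1.trans (h3.trans (hrge y))
  refine ⟨q, ?_⟩
  obtain ⟨m, hm⟩ := hCN q (g • q)
  have hsum : r m ≤ (r q + r (g • q)) / 2 - N * (dist q (g • q) ^ 2 / 4) := by
    have h1 : ∀ j ∈ Finset.range N, dist m (g ^ j • o) ^ 2 ≤
        (dist q (g ^ j • o) ^ 2 + dist (g • q) (g ^ j • o) ^ 2) / 2 - dist q (g • q) ^ 2 / 4 := by
      intro j _
      have := hm (g ^ j • o)
      rw [dist_comm m, dist_comm q (g ^ j • o), dist_comm (g • q) (g ^ j • o)]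
      exact this
    have h2 := Finset.sum_le_sum h1
    rw [Finset.sum_sub_distrib, ← Finset.sum_div, Finset.sum_add_distrib, Finset.sum_const,
      Finset.card_range, nsmul_eq_mul] at h2
    exact h2
  rw [hrinv] at hsum
  have h3 := hmin m
  have hNr : (0 : ℝ) < N := by exact_mod_cast hNpos
  have h4 : dist q (g • q) ^ 2 ≤ 0 := by nlinarith
  have h5 : dist q (g • q) = 0 := by
    have := sq_nonneg (dist q (g • q))
    exact pow_eq_zero_iff (two_ne_zero) |>.1 (le_antisymm h4 this)
  exact (dist_eq_zero.1 h5).symm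

end Vale.Agent.Lib.P184.Geo
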