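import Vale.Agent.Lib.P184.Geo.Defs

/-!
# Module G2: for a metrically proper cobounded action on a proper space the displacement function
of every group element attains its infimum

FROZEN STATEMENT `exists_min_displacement`.  Route: let `L = ⨅ y, dist y (g • y)` (bounded below
by `0`).  Choose `x n` with `dist (x n) (g • x n) ≤ L + 1 / (n + 1)`, `h n` with
`dist (h n • o) (x n) ≤ R`, `y n = (h n)⁻¹ • x n` (so `dist o (y n) ≤ R`),
`k n = (h n)⁻¹ * g * h n` (so `dist (y n) (k n • y n) = dist (x n) (g • x n)`).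
Then `dist (k n • o) o ≤ 2 * R + L + 1`, a finite set of group elements by `hproper`, so some `k`
equals `k n` for infinitely many `n` (pigeonhole, e.g. `Finite.exists_infinite_fiber` or
`Set.Finite` plus `Filter.Frequently`).  Along these `n`, `y n` lies in the compact ball
`Metric.closedBall o R`; take a cluster point `y`; continuity gives `dist y (k • y) ≤ L`.
With `h = h n` for one such `n`, `p = h • y` satisfies `dist p (g • p) = dist y (k • y) ≤ L`.
Alternative route avoiding sequences: the set `S = {k | dist (k • o) o ≤ 2 * R + L + 1}` is finite;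
for each `k` the continuous function `y ↦ dist y (k • y)` attains its minimum on the compact ball;
take the least of these finitely many minima over those `k ∈ S` that are conjugate to `g`.
-/

namespace Vale.Agent.Lib.P184.Geo

theorem exists_min_displacement {G X : Type*} [Group G] [MetricSpace X] [ProperSpace X]
    [MulAction G X] (hiso : ∀ (g : G) (x y : X), dist (g • x) (g • y) = dist x y)
    (hproper : ∀ (o : X) (R : ℝ), {g : G | dist (g • o) o ≤ R}.Finite)
    (o : X) (R : ℝ) (hcob : ∀ y : X, ∃ g : G, dist (g • o) y ≤ R) (g : G) :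
    ∃ p : X, ∀ y : X, dist p (g • p) ≤ dist y (g • y) := by
  classical
  have hR : 0 ≤ R := by
    obtain ⟨h, hh⟩ := hcob o
    exact dist_nonneg.trans hh
  have hcont : ∀ k : G, Continuous (fun y : X => dist y (k • y)) := by
    intro k
    have hk : Isometry (fun y : X => k • y) := Isometry.of_dist_eq (hiso k)
    exact continuous_id.dist hk.continuous
  have hmin : ∀ k : G, ∃ y ∈ Metric.closedBall o R,
      ∀ y' ∈ Metric.closedBall o R, dist y (k • y) ≤ dist y' (k • y') := by
    intro k
    obtain ⟨y, hy, hy'⟩ := (isCompact_closedBall o R).exists_isMinOn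
      ⟨o, Metric.mem_closedBall_self hR⟩ (hcont k).continuousOn
    exact ⟨y, hy, fun y' h' => hy' h'⟩
  choose Y hYmem hYmin using hmin
  have hTfin : {k : G | dist (k • o) o ≤ 2 * R + dist o (g • o) ∧
      ∃ h : G, k = h⁻¹ * g * h}.Finite :=
    (hproper o (2 * R + dist o (g • o))).subset (fun k hk => hk.1)
  have hgT : g ∈ {k : G | dist (k • o) o ≤ 2 * R + dist o (g • o) ∧
      ∃ h : G, k = h⁻¹ * g * h} := by
    refine ⟨?_, 1, by simp⟩
    rw [dist_comm]
    linarith
  obtain ⟨k, hkT, hkmin⟩ := Set.exists_min_image _ (fun k : G => dist (Y k) (k • Y k)) hTfin ⟨g, hgT⟩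
  obtain ⟨-, h, hk⟩ := hkT
  -- conjugation formula
  have hconj : ∀ (h : G) (y : X), dist (h • y) (g • h • y) = dist y ((h⁻¹ * g * h) • y) := by
    intro h y
    rw [← hiso h y ((h⁻¹ * g * h) • y)]
    congr 1
    rw [← mul_smul, ← mul_smul]
    congr 1
    group
  refine ⟨h • Y k, fun y => ?_⟩
  have hp : dist (h • Y k) (g • h • Y k) = dist (Y k) (k • Y k) := by
    rw [hconj h (Y k), ← hk]
  rw [hp]
  by_cases hy : dist y (g • y) ≤ dist o (g • o)
  · obtain ⟨h', hh'⟩ := hcob y
    have hy' : dist (h'⁻¹ • y) o ≤ R := by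
      rw [← hiso h' (h'⁻¹ • y) o, smul_inv_smul, dist_comm]
      exact hh'
    have hD : dist (h'⁻¹ • y) ((h'⁻¹ * g * h') • h'⁻¹ • y) = dist y (g • y) := by
      rw [← hconj h' (h'⁻¹ • y), smul_inv_smul]
    have hmem : (h'⁻¹ * g * h') ∈ {k : G | dist (k • o) o ≤ 2 * R + dist o (g • o) ∧
        ∃ h : G, k = h⁻¹ * g * h} := by
      refine ⟨?_, h', rfl⟩
      have t1 := dist_triangle ((h'⁻¹ * g * h') • o) ((h'⁻¹ * g * h') • h'⁻¹ • y) o
      have t2 := dist_triangle ((h'⁻¹ * g * h') • h'⁻¹ • y) (h'⁻¹ • y) o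
      have t3 : dist ((h'⁻¹ * g * h') • o) ((h'⁻¹ * g * h') • h'⁻¹ • y) = dist o (h'⁻¹ • y) :=
        hiso _ _ _
      have t4 := dist_comm o (h'⁻¹ • y)
      have t5 := dist_comm ((h'⁻¹ * g * h') • h'⁻¹ • y) (h'⁻¹ • y)
      linarith
    have h1 := hkmin _ hmem
    have h2 := hYmin (h'⁻¹ * g * h') (h'⁻¹ • y) (Metric.mem_closedBall.mpr hy')
    linarith
  · push Not at hy
    have h1 := hkmin _ hgT
    have h2 := hYmin g o (Metric.mem_closedBall_self hR)
    linarith

end Vale.Agent.Lib.P184.Geo
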