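import Vale.Agent.Lib.P184.Geo.Axis
import Vale.Agent.Lib.P184.Geo.Min
import Vale.Agent.Lib.P184.Geo.Fix

/-!
# Module G4: consequences for a geometric action on a proper CN space

FROZEN STATEMENTS.  Routes:
* `finite_finOrder_classes`: if `x` has finite order it fixes some `q` (`exists_fixed_of_finOrder`);
  choose `h` with `dist (h • o) q ≤ R`; then `k = h⁻¹ * x * h` fixes `h⁻¹ • q`, which is within `R` of
  `o`, so `dist (k • o) o ≤ 2 * R`.  Hence every class in the set is `ConjClasses.mk k` for some `k` in
  the finite set `{k | dist (k • o) o ≤ 2 * R}`: use `Set.Finite.subset` of the image under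
  `ConjClasses.mk`.
* `escape_of_not_finOrder`: take `p` from `exists_min_displacement`, `c = dist p (g • p)`.  If `c = 0`
  then `g • p = p`, all powers of `g` lie in the finite set `{k | dist (k • p) p ≤ 0}`, so `g` has
  finite order (`isOfFinOrder_iff_pow_eq_one`, or `Set.Finite` of `Set.range (g ^ ·)` and
  injectivity of powers for elements of infinite order: `injective_pow_iff_not_isOfFinOrder`).
  Then use `dist_pow_of_min`.
-/

namespace Vale.Agent.Lib.P184.Geo

theorem finite_finOrder_classes {G X : Type*} [Group G] [MetricSpace X] [ProperSpace X]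
    [MulAction G X] (hiso : ∀ (g : G) (x y : X), dist (g • x) (g • y) = dist x y) (hCN : CN X)
    (hproper : ∀ (o : X) (R : ℝ), {g : G | dist (g • o) o ≤ R}.Finite)
    (o : X) (R : ℝ) (hcob : ∀ y : X, ∃ g : G, dist (g • o) y ≤ R) :
    {C : ConjClasses G | ∃ x ∈ C.carrier, IsOfFinOrder x}.Finite := by
  have : Nonempty X := ⟨o⟩
  refine ((hproper o (2 * R)).image ConjClasses.mk).subset ?_
  rintro C ⟨x, hxC, hx⟩
  obtain ⟨q, hq⟩ := exists_fixed_of_finOrder hiso hCN x hx
  obtain ⟨h, hh⟩ := hcob q
  refine ⟨h⁻¹ * x * h, ?_, ?_⟩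
  · -- displacement bound
    show dist ((h⁻¹ * x * h) • o) o ≤ 2 * R
    have e1 : dist ((h⁻¹ * x * h) • o) o = dist (x • h • o) (h • o) := by
      rw [← hiso h ((h⁻¹ * x * h) • o) o]
      congr 1
      rw [← mul_smul, ← mul_smul]
      congr 1
      group
    have e2 : dist (x • h • o) q = dist (h • o) q := by
      conv_lhs => rw [← hq]
      exact hiso x _ _
    have e3 := dist_triangle (x • h • o) q (h • o)
    have e4 := dist_comm q (h • o)
    rw [e1]
    linarith
  · -- same class
    have hC : ConjClasses.mk x = C := ConjClasses.mem_carrier_iff_mk_eq.mp hxC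
    rw [← hC]
    apply ConjClasses.mk_eq_mk_iff_isConj.mpr
    rw [isConj_iff]
    exact ⟨h, by group⟩

theorem escape_of_not_finOrder {G X : Type*} [Group G] [MetricSpace X] [ProperSpace X]
    [MulAction G X] (hiso : ∀ (g : G) (x y : X), dist (g • x) (g • y) = dist x y) (hCN : CN X)
    (hproper : ∀ (o : X) (R : ℝ), {g : G | dist (g • o) o ≤ R}.Finite)
    (o : X) (R : ℝ) (hcob : ∀ y : X, ∃ g : G, dist (g • o) y ≤ R)
    (g : G) (hg : ¬ IsOfFinOrder g) :
    ∃ (p : X) (c : ℝ), 0 < c ∧ ∀ n : ℕ, c * n ≤ dist p (g ^ n • p) := by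
  obtain ⟨p, hp⟩ := exists_min_displacement hiso hproper o R hcob g
  refine ⟨p, dist p (g • p), ?_, fun n => ?_⟩
  · rcases (dist_nonneg (x := p) (y := g • p)).lt_or_eq with h | h
    · exact h
    · exfalso
      have hfix : g • p = p := (dist_eq_zero.mp h.symm).symm
      have hpow : ∀ n : ℕ, g ^ n • p = p := by
        intro n
        induction n with
        | zero => simp
        | succ n ih => rw [pow_succ, mul_smul, hfix, ih]
      have hinj : Function.Injective (fun n : ℕ => g ^ n) :=
        injective_pow_iff_not_isOfFinOrder.mpr hg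
      have hsub : Set.range (fun n : ℕ => g ^ n) ⊆ {k : G | dist (k • p) p ≤ 0} := by
        rintro _ ⟨n, rfl⟩
        show dist (g ^ n • p) p ≤ 0
        rw [hpow n, dist_self]
      have hfin : (Set.range (fun n : ℕ => g ^ n)).Finite := (hproper p 0).subset hsub
      exact Set.infinite_range_of_injective hinj hfin
  · have := dist_pow_of_min hiso hCN g p hp n
    linarith [mul_comm (n : ℝ) (dist p (g • p))]

end Vale.Agent.Lib.P184.Geo
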