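import Mathlib

/-!
# P184, geometric part: spaces with the CN inequality of Bruhat and Tits (CAT(0) spaces)
-/

namespace Vale.Agent.Lib.P184.Geo

/-- `m` is a midpoint of `x` and `y` in the sense of the CN inequality of Bruhat and Tits. -/
def IsMid {X : Type*} [PseudoMetricSpace X] (m x y : X) : Prop :=
  ∀ z, dist z m ^ 2 ≤ (dist z x ^ 2 + dist z y ^ 2) / 2 - dist x y ^ 2 / 4

/-- The CN inequality (semi-parallelogram law): any two points have a midpoint as above. -/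
def CN (X : Type*) [PseudoMetricSpace X] : Prop := ∀ x y : X, ∃ m, IsMid m x y

/-- Condition (B1) of strong bolicity (Lafforgue). -/
def B1 (X : Type*) [PseudoMetricSpace X] : Prop :=
  ∀ r η : ℝ, 0 < η → ∃ R : ℝ, ∀ x₁ x₂ y₁ y₂ : X, dist x₁ x₂ ≤ r → dist y₁ y₂ ≤ r →
    R ≤ dist x₁ y₁ → dist x₁ y₂ + dist x₂ y₁ ≤ dist x₁ y₁ + dist x₂ y₂ + η

end Vale.Agent.Lib.P184.Geo
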