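import Vale.Agent.Lib.P184.ClassForm
import Vale.Agent.Lib.P184.Geo.Defs

/-!
# The horofunction cocycle of a conjugacy class of elements of positive translation length

`G` acts by isometries on a space with condition (B1).  For `x` in the class of `g` we put
`c x h = ` limit along an ultrafilter of the Cesaro means of
`dist (h • o) (x ^ (n+1) • o) - dist o (x ^ (n+1) • o)`.
-/

namespace Vale.Agent.Lib.P184.Geo

open Filter Topology
open scoped BigOperators

/-- Cesaro means -/
noncomputable def av (u : ℕ → ℝ) (N : ℕ) : ℝ := (N : ℝ)⁻¹ * ∑ i ∈ Finset.range N, u i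

theorem abs_av_le {u : ℕ → ℝ} {B : ℝ} (h : ∀ n, |u n| ≤ B) (N : ℕ) : |av u N| ≤ B := by
  have hB : 0 ≤ B := (abs_nonneg _).trans (h 0)
  unfold av
  rcases Nat.eq_zero_or_pos N with rfl | hN
  · simpa using hB
  · have hN' : (0 : ℝ) < N := by exact_mod_cast hN
    rw [abs_mul, abs_of_pos (inv_pos.2 hN')]
    have h1 : |∑ i ∈ Finset.range N, u i| ≤ N * B := by
      calc |∑ i ∈ Finset.range N, u i| ≤ ∑ i ∈ Finset.range N, |u i| :=
            Finset.abs_sum_le_sum_abs _ _
        _ ≤ ∑ _i ∈ Finset.range N, B := Finset.sum_le_sum fun i _ => h i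
        _ = N * B := by simp
    calc (N : ℝ)⁻¹ * |∑ i ∈ Finset.range N, u i| ≤ (N : ℝ)⁻¹ * (N * B) :=
          mul_le_mul_of_nonneg_left h1 (inv_pos.2 hN').le
      _ = B := by field_simp

theorem av_add (u v : ℕ → ℝ) (N : ℕ) : av (fun n => u n + v n) N = av u N + av v N := by
  unfold av
  rw [Finset.sum_add_distrib, mul_add]

/-- limit along a fixed free ultrafilter -/
noncomputable def ulim (u : ℕ → ℝ) : ℝ := limUnder (hyperfilter ℕ : Filter ℕ) u

theorem tendsto_ulim {u : ℕ → ℝ} {B : ℝ} (h : ∀ n, |u n| ≤ B) :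
    Tendsto u (hyperfilter ℕ : Filter ℕ) (𝓝 (ulim u)) := by
  have h1 : ((hyperfilter ℕ).map u : Filter ℝ) ≤ 𝓟 (Set.Icc (-B) B) := by
    rw [Ultrafilter.coe_map, le_principal_iff, mem_map]
    exact Filter.univ_mem' fun n => abs_le.1 (h n)
  obtain ⟨L, _, hL⟩ := isCompact_Icc.ultrafilter_le_nhds _ h1
  exact tendsto_nhds_limUnder ⟨L, hL⟩

theorem ulim_eq {u : ℕ → ℝ} {L : ℝ} (h : Tendsto u (hyperfilter ℕ : Filter ℕ) (𝓝 L)) :
    ulim u = L := h.limUnder_eq

variable {G : Type*} [Group G] {X : Type*} [PseudoMetricSpace X] [MulAction G X]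

/-- differences of distances to the orbit of `x` -/
noncomputable def hs (o : X) (x h : G) (n : ℕ) : ℝ :=
  dist (h • o) (x ^ (n + 1) • o) - dist o (x ^ (n + 1) • o)

theorem abs_hs_le (o : X) (x h : G) (n : ℕ) : |hs o x h n| ≤ dist (h • o) o :=
  abs_dist_sub_le _ _ _

/-- the cocycle -/
noncomputable def coc (o : X) (x h : G) : ℝ := ulim (av (hs o x h))

theorem tendsto_coc (o : X) (x h : G) :
    Tendsto (av (hs o x h)) (hyperfilter ℕ : Filter ℕ) (𝓝 (coc o x h)) :=
  tendsto_ulim (abs_av_le (abs_hs_le o x h))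

theorem abs_coc_le (o : X) (x h : G) : |coc o x h| ≤ dist (h • o) o :=
  le_of_tendsto (tendsto_coc o x h).abs
    (Eventually.of_forall fun N => abs_av_le (abs_hs_le o x h) N)

section

variable (hiso : ∀ (g : G) (x y : X), dist (g • x) (g • y) = dist x y)

include hiso in
theorem hs_mul (o : X) (x h k : G) (n : ℕ) :
    hs o x (h * k) n - hs o x h n
      = dist (k • o) ((h⁻¹ * x * h) ^ (n + 1) • h⁻¹ • o)
        - dist o ((h⁻¹ * x * h) ^ (n + 1) • h⁻¹ • o) := by
  have e : (h⁻¹ * x * h) ^ (n + 1) • h⁻¹ • o = h⁻¹ • x ^ (n + 1) • o := by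
    have := conj_pow (i := n + 1) (a := h⁻¹) (b := x)
    rw [inv_inv] at this
    rw [this, smul_smul, smul_smul]
    congr 1
    group
  rw [e]
  unfold hs
  have e1 : dist ((h * k) • o) (x ^ (n + 1) • o) = dist (k • o) (h⁻¹ • x ^ (n + 1) • o) := by
    rw [← hiso h (k • o) (h⁻¹ • x ^ (n + 1) • o), smul_smul, smul_smul h h⁻¹, mul_inv_cancel,
      one_smul]
  have e2 : dist (h • o) (x ^ (n + 1) • o) = dist o (h⁻¹ • x ^ (n + 1) • o) := by
    rw [← hiso h o (h⁻¹ • x ^ (n + 1) • o), smul_smul h h⁻¹, mul_inv_cancel, one_smul]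
  rw [e1, e2]
  ring

include hiso in
theorem coc_mul (hB : B1 X) (o : X) (x h k : G)
    (hesc : ∀ u v : X, Tendsto (fun n : ℕ => dist u ((h⁻¹ * x * h) ^ n • v)) atTop atTop) :
    coc o x (h * k) = coc o x h + coc o (h⁻¹ * x * h) k := by
  set y := h⁻¹ * x * h with hy
  set p := h⁻¹ • o with hp
  set Δ : ℕ → ℝ := fun n => hs o x (h * k) n - hs o x h n - hs o y k n with hΔ
  have hΔ0 : Tendsto Δ atTop (𝓝 0) := by
    rw [Metric.tendsto_atTop]
    intro η hη
    obtain ⟨R, hR⟩ := hB (max (dist (k • o) o) (dist p o)) (η / 2) (half_pos hη)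
    have h1 := (hesc (k • o) p).eventually_ge_atTop R
    have h2 := (hesc o p).eventually_ge_atTop R
    obtain ⟨N, hN⟩ := eventually_atTop.1 (h1.and h2)
    refine ⟨N, fun n hn => ?_⟩
    obtain ⟨g1, g2⟩ := hN (n + 1) (by omega)
    have hd : dist (y ^ (n + 1) • p) (y ^ (n + 1) • o) ≤ max (dist (k • o) o) (dist p o) := by
      rw [hiso]; exact le_max_right _ _
    have a1 := hR (k • o) o (y ^ (n + 1) • p) (y ^ (n + 1) • o) (le_max_left _ _) hd g1
    have a2 := hR o (k • o) (y ^ (n + 1) • p) (y ^ (n + 1) • o)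
      (by rw [dist_comm]; exact le_max_left _ _) hd g2
    have e : Δ n = (dist (k • o) (y ^ (n + 1) • p) - dist o (y ^ (n + 1) • p))
        - (dist (k • o) (y ^ (n + 1) • o) - dist o (y ^ (n + 1) • o)) := by
      simp only [hΔ]
      rw [hs_mul hiso]
      rfl
    rw [Real.dist_eq, sub_zero, e, abs_lt]
    constructor <;> linarith
  have hav : Tendsto (av Δ) (hyperfilter ℕ : Filter ℕ) (𝓝 0) :=
    (hΔ0.cesaro).mono_left Nat.hyperfilter_le_atTop
  have hsum : av (hs o x (h * k)) = fun N => av (hs o x h) N + av (hs o y k) N + av Δ N := by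
    funext N
    rw [← av_add, ← av_add]
    congr 1
    funext n
    simp only [hΔ]
    ring
  have ht : Tendsto (av (hs o x (h * k))) (hyperfilter ℕ : Filter ℕ)
      (𝓝 (coc o x h + coc o y k + 0)) := by
    rw [hsum]
    exact ((tendsto_coc o x h).add (tendsto_coc o y k)).add hav
  have := ulim_eq ht
  rw [add_zero] at this
  exact this

include hiso in
theorem coc_self_le (o : X) (g : G) (c : ℝ) (hc : ∀ n : ℕ, c * n ≤ dist o (g ^ n • o)) :
    coc o g g ≤ -c := by
  refine le_of_tendsto (tendsto_coc o g g) ?_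
  have : ∀ᶠ N : ℕ in atTop, av (hs o g g) N ≤ -c := by
    filter_upwards [eventually_ge_atTop 1] with N hN
    have hN' : (0 : ℝ) < N := by exact_mod_cast hN
    have e : ∀ n, hs o g g n = dist o (g ^ n • o) - dist o (g ^ (n + 1) • o) := by
      intro n
      unfold hs
      rw [pow_succ' g n, mul_smul, hiso]
    unfold av
    simp only [e]
    rw [Finset.sum_range_sub' (fun n => dist o (g ^ n • o))]
    simp only [pow_zero, one_smul, dist_self, zero_sub]
    have := hc N
    rw [mul_neg, neg_le_neg_iff, inv_mul_eq_div, le_div_iff₀ hN']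
    exact this
  exact this.filter_mono Nat.hyperfilter_le_atTop

include hiso in
theorem escape_conj (o : X) (g : G) (c : ℝ) (hc0 : 0 < c)
    (hc : ∀ n : ℕ, c * n ≤ dist o (g ^ n • o)) (w : G) (u v : X) :
    Tendsto (fun n : ℕ => dist u ((w * g * w⁻¹) ^ n • v)) atTop atTop := by
  have hlow : ∀ n : ℕ, c * n + (-(dist o (w⁻¹ • u)) - dist o (w⁻¹ • v))
      ≤ dist u ((w * g * w⁻¹) ^ n • v) := by
    intro n
    have e : dist u ((w * g * w⁻¹) ^ n • v) = dist (w⁻¹ • u) (g ^ n • w⁻¹ • v) := by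
      rw [conj_pow, ← hiso w⁻¹ u, smul_smul, smul_smul]
      congr 2
      group
    rw [e]
    have t := dist_triangle4 o (w⁻¹ • u) (g ^ n • w⁻¹ • v) (g ^ n • o)
    rw [hiso, dist_comm (w⁻¹ • v) o] at t
    have := hc n
    linarith
  refine tendsto_atTop_mono hlow ?_
  exact tendsto_atTop_add_const_right _ _
    (Tendsto.const_mul_atTop hc0 tendsto_natCast_atTop_atTop)

end

/-- **Main theorem of the module.**  If `G` acts by isometries on a space with condition (B1) and
the orbit of `o` under the powers of `g` escapes at linear speed, then the Hattori-Stallings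
coefficient at the class of `g` of every idempotent matrix over `ℓ¹(G)` vanishes. -/
theorem trace_vanish_of_b1 {ι : Type*} [Fintype ι] [DecidableEq ι] (e : Matrix ι ι (G → ℂ))
    (hsum : ∀ i j, Summable fun g => ‖e i j g‖)
    (hidem : ∀ i j g, ∑ k, ∑' h, e i k h * e k j (h⁻¹ * g) = e i j g)
    (hiso : ∀ (g : G) (x y : X), dist (g • x) (g • y) = dist x y) (hB : B1 X)
    (g : G) (o : X) (c : ℝ) (hc0 : 0 < c) (hc : ∀ n : ℕ, c * n ≤ dist o (g ^ n • o)) :
    ∑' x : (ConjClasses.mk g).carrier, ∑ i, e i i x = 0 := by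
  refine trace_vanish_of_class_cocycle e hsum hidem (ConjClasses.mk g) (coc o) ?_ ?_ ?_
  · intro x hx h k
    refine coc_mul hiso hB o x h k ?_
    rw [ConjClasses.mem_carrier_iff_mk_eq, ConjClasses.mk_eq_mk_iff_isConj, isConj_comm,
      isConj_iff] at hx
    obtain ⟨w, hw⟩ := hx
    intro u v
    have := escape_conj hiso o g c hc0 hc (h⁻¹ * w) u v
    have e1 : h⁻¹ * w * g * (h⁻¹ * w)⁻¹ = h⁻¹ * x * h := by
      rw [← hw]; group
    rwa [e1] at this
  · intro h
    exact ⟨dist (h • o) o, fun x _ => abs_coc_le o x h⟩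
  · refine ⟨g, ConjClasses.mem_carrier_mk, ?_⟩
    have := coc_self_le hiso o g c hc
    linarith

end Vale.Agent.Lib.P184.Geo
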