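import Vale.Agent.Lib.P184.Geo.Mid

/-!
# Module G1: a point of minimal displacement moves at linear speed

FROZEN STATEMENT `dist_pow_of_min`.  Route:
(a) `double`: if `M ≤ dist y (f • y)` for all `y` then `2 * M ≤ dist y (f ^ 2 • y)` for all `y`:
    let `m` be a midpoint of `y, f • y`; `f • m` is a midpoint of `f • y, f ^ 2 • y` (`IsMid.smul`);
    `M ≤ dist m (f • m) ≤ dist y (f ^ 2 • y) / 2` (`IsMid.contract`).
(b) by induction on `k`: `2 ^ k * L ≤ dist y (g ^ (2 ^ k) • y)` for all `y`, `L = dist p (g • p)`.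
(c) `dist p (g ^ j • p) ≤ j * L` for all `j` (triangle inequality, isometry).
(d) for `n ≤ 2 ^ k` (e.g. `k = n`): `2 ^ k * L ≤ dist p (g ^ (2 ^ k) • p)
    ≤ dist p (g ^ n • p) + dist (g ^ n • p) (g ^ n • g ^ (2 ^ k - n) • p)
    ≤ dist p (g ^ n • p) + (2 ^ k - n) * L`.
-/

namespace Vale.Agent.Lib.P184.Geo

private theorem double {G X : Type*} [Group G] [PseudoMetricSpace X] [MulAction G X]
    (hiso : ∀ (g : G) (x y : X), dist (g • x) (g • y) = dist x y) (hCN : CN X)
    (f : G) (M : ℝ) (hM : ∀ y : X, M ≤ dist y (f • y)) (y : X) :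
    2 * M ≤ dist y (f ^ 2 • y) := by
  obtain ⟨m, hm⟩ := hCN y (f • y)
  have hm' : IsMid (f • m) (f • y) (f • f • y) := hm.smul hiso f
  have h1 := hm.contract hm'
  have h2 := hM m
  have h3 : f ^ 2 • y = f • f • y := by rw [pow_two, mul_smul]
  rw [h3]
  linarith

private theorem pow_two_pow {G X : Type*} [Group G] [PseudoMetricSpace X] [MulAction G X]
    (hiso : ∀ (g : G) (x y : X), dist (g • x) (g • y) = dist x y) (hCN : CN X)
    (g : G) (L : ℝ) (hL : ∀ y : X, L ≤ dist y (g • y)) (k : ℕ) :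
    ∀ y : X, (2 : ℝ) ^ k * L ≤ dist y (g ^ (2 ^ k) • y) := by
  induction k with
  | zero => intro y; simpa using hL y
  | succ k ih =>
    intro y
    have h := double hiso hCN (g ^ (2 ^ k)) ((2 : ℝ) ^ k * L) ih y
    rw [← pow_mul, ← pow_succ] at h
    rw [pow_succ]
    linarith

private theorem dist_pow_le {G X : Type*} [Group G] [PseudoMetricSpace X] [MulAction G X]
    (hiso : ∀ (g : G) (x y : X), dist (g • x) (g • y) = dist x y)
    (g : G) (p : X) (j : ℕ) : dist p (g ^ j • p) ≤ (j : ℝ) * dist p (g • p) := by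
  induction j with
  | zero => simp
  | succ j ih =>
    have h1 := dist_triangle p (g ^ j • p) (g ^ (j + 1) • p)
    have h2 : dist (g ^ j • p) (g ^ (j + 1) • p) = dist p (g • p) := by
      rw [pow_succ, mul_smul, hiso]
    push_cast
    linarith

theorem dist_pow_of_min {G X : Type*} [Group G] [PseudoMetricSpace X] [MulAction G X]
    (hiso : ∀ (g : G) (x y : X), dist (g • x) (g • y) = dist x y) (hCN : CN X)
    (g : G) (p : X) (hmin : ∀ y : X, dist p (g • p) ≤ dist y (g • y)) (n : ℕ) :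
    (n : ℝ) * dist p (g • p) ≤ dist p (g ^ n • p) := by
  have hn : n ≤ 2 ^ n := Nat.lt_two_pow_self.le
  obtain ⟨d, hd⟩ := Nat.exists_eq_add_of_le hn
  have h1 := pow_two_pow hiso hCN g (dist p (g • p)) hmin n p
  have h2 := dist_triangle p (g ^ n • p) (g ^ (2 ^ n) • p)
  have h3 : dist (g ^ n • p) (g ^ (2 ^ n) • p) = dist p (g ^ d • p) := by
    rw [hd, pow_add, mul_smul, hiso]
  have h4 := dist_pow_le hiso g p d
  have h5 : ((2 : ℝ) ^ n) = (n : ℝ) + (d : ℝ) := by exact_mod_cast hd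
  rw [h5] at h1
  nlinarith

end Vale.Agent.Lib.P184.Geo
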