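import Vale.Agent.Lib.P184.Geo.Defs

/-!
# Module G0: elementary facts on CN midpoints

FROZEN STATEMENTS.  Routes:
* `IsMid.dist_left`: take `z = x` in the definition: `dist x m ^ 2 ≤ dist x y ^ 2 / 4`; same for `y`;
  the triangle inequality `dist x y ≤ dist x m + dist m y` forces equality.
* `IsMid.contract`: `m` midpoint of `y, y'`, `m'` midpoint of `y', y''`.  Definition of `m` at
  `z = m'`, definition of `m'` at `z = y`, and `dist m' y' = dist y' y'' / 2` give
  `dist m' m ^ 2 ≤ dist y y'' ^ 2 / 4`.
* `IsMid.smul`: `dist z (g • m) = dist (g⁻¹ • z) m` etc.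
-/

namespace Vale.Agent.Lib.P184.Geo

variable {X : Type*} [PseudoMetricSpace X]

private theorem IsMid.le_left {m x y : X} (h : IsMid m x y) : dist x m ≤ dist x y / 2 := by
  have h1 := h x
  rw [dist_self] at h1
  have h2 : dist x m ^ 2 ≤ (dist x y / 2) ^ 2 := by nlinarith
  exact abs_le_of_sq_le_sq' h2 (by positivity) |>.2

private theorem IsMid.le_right {m x y : X} (h : IsMid m x y) : dist y m ≤ dist x y / 2 := by
  have h1 := h y
  rw [dist_self, dist_comm y x] at h1
  have h2 : dist y m ^ 2 ≤ (dist x y / 2) ^ 2 := by nlinarith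
  exact abs_le_of_sq_le_sq' h2 (by positivity) |>.2

theorem IsMid.dist_left {m x y : X} (h : IsMid m x y) : dist x m = dist x y / 2 := by
  have h1 := h.le_left
  have h2 := h.le_right
  have h3 := dist_triangle x m y
  rw [dist_comm m y] at h3
  linarith

theorem IsMid.dist_right {m x y : X} (h : IsMid m x y) : dist y m = dist x y / 2 := by
  have h1 := h.le_left
  have h2 := h.le_right
  have h3 := dist_triangle x m y
  rw [dist_comm m y] at h3
  linarith

theorem IsMid.contract {m m' y y' y'' : X} (h : IsMid m y y') (h' : IsMid m' y' y'') :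
    dist m m' ≤ dist y y'' / 2 := by
  have h1 := h m'
  have h2 := h' y
  have h3 := h'.dist_left
  rw [dist_comm m' y, dist_comm m' y', h3, dist_comm m' m] at h1
  have h4 : dist m m' ^ 2 ≤ (dist y y'' / 2) ^ 2 := by nlinarith
  exact abs_le_of_sq_le_sq' h4 (by positivity) |>.2

theorem IsMid.symm {m x y : X} (h : IsMid m x y) : IsMid m y x := by
  intro z
  have h1 := h z
  rw [dist_comm y x]
  linarith

theorem IsMid.smul {G : Type*} [Group G] [MulAction G X]
    (hiso : ∀ (g : G) (x y : X), dist (g • x) (g • y) = dist x y) {m x y : X} (h : IsMid m x y)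
    (g : G) : IsMid (g • m) (g • x) (g • y) := by
  intro z
  have h1 := h (g⁻¹ • z)
  have key : ∀ w : X, dist z (g • w) = dist (g⁻¹ • z) w := by
    intro w
    rw [← hiso g (g⁻¹ • z) w, smul_inv_smul]
  rw [key, key, key, hiso]
  exact h1

end Vale.Agent.Lib.P184.Geo
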